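import Vale.Agent.P139.Main
import Vale.Agent.P139.Reg

open MeasureTheory

namespace Vale.Agent.Results.P139.Blowup

open Vale.Agent.P139

theorem result : ∃ d p : ℕ, Odd p ∧ 3 ≤ p ∧ (1 : ℝ) < d / 2 - 2 / (p - 1) ∧
    ∃ α1 : ℝ, ∀ α : ℝ, α1 < α → ∀ k : ℕ, (d : ℝ) / 2 < k → (k : ℝ) < α - d / 2 →
      ∀ v : NNReal, 0 < v →
      ∀ (Ω : Type) [MeasurableSpace Ω] (P : Measure Ω) [IsProbabilityMeasure P]
        (g : (Fin d → ℤ) → Ω → ℂ), (∀ n, Measurable (g n)) → ProbabilityTheory.iIndepFun g P →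
        (∀ n, P.map (g n) = cgauss v) →
        ∃ S : Set Ω, MeasurableSet S ∧ 0 < P S ∧ ∀ x ∈ S,
          Summable (hs k fun n => g n x * (((1 + nsq n) ^ (-α / 2) : ℝ) : ℂ)) ∧
          ¬ ∃ c, GlobalSol p k (fun n => g n x * (((1 + nsq n) ^ (-α / 2) : ℝ) : ℂ)) c := by
  obtain ⟨p, h1, h2, h3, α1, h4⟩ := main
  refine ⟨12, p, h1, h2, h3, α1, fun α hα k hk hk' v hv Ω _ P _ g hm hi hg => ?_⟩
  obtain ⟨S, hS, hP, hb⟩ := h4 α hα k hk v hv Ω P g hm hi hg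
  obtain ⟨T, hT, hT0, hT1⟩ := exists_measurable_superset_of_null
    (ae_iff.1 (reg_ae P v g hm hg k α (by push_cast at hk'; linarith)))
  refine ⟨S \ T, hS.diff hT0, by rwa [measure_diff_null hT1], fun x hx => ⟨?_, hb x hx.1⟩⟩
  by_contra h
  exact hx.2 (hT h)

end Vale.Agent.Results.P139.Blowup
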